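import Vale.Agent.P141.Near

open MeasureTheory Filter Topology
open scoped ENNReal NNReal SchwartzMap

namespace Vale.Agent.Results.P141.UnboundedSmallR

open Vale.P141

/-- The trilinear Hilbert transform `THT` (principal value, slopes 1,2,3; it exists for all
Schwartz functions) is unbounded
* at every Hölder tuple with `r ≤ 7/15`;
* for all `p₁, p₃` with `1/p₁ + 1/p₃ > 1`, at all Hölder tuples with `p₂` close to `1`;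
* for all `p₁, p₂` with `1/p₁ + 1/p₂ > 1`, at all Hölder tuples with `p₃` close to `1`;
* at some Hölder tuples with `r < 1/2` arbitrarily close to `1/2`;
* at every Hölder tuple (finite exponents, `r < 1`) for which some finite integer-valued random
  pair `(x,t)` satisfies
  `(1/r - 2) H(x) + H(x,t) > H(x-t)/p₁ + H(x-2t)/p₂ + H(x-3t)/p₃`. -/
theorem result :
    (∀ (f₁ f₂ f₃ : 𝓢(ℝ, ℂ)) (x : ℝ),
      Tendsto (fun q : ℝ × ℝ => truncT f₁ f₂ f₃ q.1 q.2 x)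
        ((𝓝[>] (0 : ℝ)) ×ˢ (atTop : Filter ℝ)) (𝓝 (THT f₁ f₂ f₃ x))) ∧
    (∀ p₁ p₂ p₃ r : ℝ≥0∞, IsHolder p₁ p₂ p₃ r → r ≤ 7 / 15 → ¬ BoundedAt p₁ p₂ p₃ r) ∧
    (∀ p₁ p₃ : ℝ≥0∞, 1 < p₁ → 1 < p₃ → 1 < p₁⁻¹ + p₃⁻¹ →
      ∃ q : ℝ≥0∞, 1 < q ∧ ∀ p₂ r : ℝ≥0∞, p₂ < q → IsHolder p₁ p₂ p₃ r →
        ¬ BoundedAt p₁ p₂ p₃ r) ∧
    (∀ p₁ p₂ : ℝ≥0∞, 1 < p₁ → 1 < p₂ → 1 < p₁⁻¹ + p₂⁻¹ →
      ∃ q : ℝ≥0∞, 1 < q ∧ ∀ p₃ r : ℝ≥0∞, p₃ < q → IsHolder p₁ p₂ p₃ r →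
        ¬ BoundedAt p₁ p₂ p₃ r) ∧
    (∀ r₀ : ℝ≥0∞, r₀ < 2⁻¹ → ∃ p₁ p₂ p₃ r : ℝ≥0∞,
      IsHolder p₁ p₂ p₃ r ∧ r₀ < r ∧ r < 2⁻¹ ∧ ¬ BoundedAt p₁ p₂ p₃ r) ∧
    (∀ p₁ p₂ p₃ r : ℝ≥0∞, IsHolder p₁ p₂ p₃ r → p₁ ≠ ⊤ → p₂ ≠ ⊤ → p₃ ≠ ⊤ → r < 1 →
      (∃ (n : ℕ) (w : Fin n → ℝ) (x t : Fin n → ℤ), (∀ i, 0 < w i) ∧ ∑ i, w i = 1 ∧
        Function.Injective (fun i => (x i, t i)) ∧
        p₁.toReal⁻¹ * ent w (fun i => x i - t i) + p₂.toReal⁻¹ * ent w (fun i => x i - 2 * t i)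
          + p₃.toReal⁻¹ * ent w (fun i => x i - 3 * t i)
          < (r.toReal⁻¹ - 2) * ent w x + (- ∑ i, w i * Real.log (w i))) →
      ¬ BoundedAt p₁ p₂ p₃ r) := by
  refine ⟨lim_main, ?_, ?_, ?_, near_half, ?_⟩
  · intro p₁ p₂ p₃ r h hr
    exact small_r ana_main hom_main push_main rgh_main ten_main ent_main num_main h hr
  · intro p₁ p₃ h1 h3 h13
    exact face2 ana_main hom_main push_main rgh_main ten_main face2_main logf_main h1 h3 h13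
  · intro p₁ p₂ h1 h2 h12
    exact face3 ana_main hom_main push_main rgh_main ten_main face3_main logf_main h1 h2 h12
  · rintro p₁ p₂ p₃ r h h1 h2 h3 hr ⟨n, w, x, t, hw, hw1, hinj, hlt⟩
    have hr' : r.toReal < 1 := by
      have := (ENNReal.toReal_lt_toReal h.r_lt.ne ENNReal.one_ne_top).2 hr
      simpa using this
    exact crit ana_main hom_main push_main rgh_main ten_main ent_main h h1 h2 h3 hr' n w x t
      hw hw1 hinj hlt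

end Vale.Agent.Results.P141.UnboundedSmallR
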